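import Vale.Agent.P080.Convex

/-!
# P080: convex (or concave) infinity-harmonic functions are `C^{1,1}` in every dimension

For a convex or concave viscosity solution `u` of `Δ_∞ u = 0` on an open set `Ω ⊆ ℝ^d`
(any `d`), we prove: `u` is `C^1` on `Ω`; `|∇u|` is a constant `L` on `Ω`;
`|∇u(x) - ∇u(y)| ≤ (L / r) |x - y|` whenever the closed `r`-balls around `x` and `y` lie in `Ω`;
and `2 r L ≤ osc u` over any closed `r`-ball inside `Ω`.
The proof is self-contained (comparison with cones proved from the viscosity definition).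
-/

namespace Vale.Agent.Results.P080.ConvexCase

open Vale.Agent.P080 Metric

theorem result (d : ℕ) (Ω : Set (EuclideanSpace ℝ (Fin d))) (hΩ : IsOpen Ω)
    (u : EuclideanSpace ℝ (Fin d) → ℝ) (hu : IsInfHarmonic u Ω)
    (hc : ConvexOn ℝ Ω u ∨ ConcaveOn ℝ Ω u) :
    ContDiffOn ℝ 1 u Ω ∧ ∃ L : ℝ, (∀ x ∈ Ω, ‖gradient u x‖ = L) ∧
      (∀ x y : EuclideanSpace ℝ (Fin d), ∀ r : ℝ, 0 < r → closedBall x r ⊆ Ω →
        closedBall y r ⊆ Ω → ‖gradient u x - gradient u y‖ ≤ L / r * ‖x - y‖) ∧
      (∀ x : EuclideanSpace ℝ (Fin d), ∀ r M : ℝ, 0 < r → closedBall x r ⊆ Ω →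
        (∀ a ∈ closedBall x r, ∀ b ∈ closedBall x r, u a - u b ≤ M) → 2 * r * L ≤ M) := by
  rcases subsingleton_or_nontrivial (EuclideanSpace ℝ (Fin d)) with hS | hN
  · refine ⟨?_, 0, ?_, ?_, ?_⟩
    · have : u = fun _ => u 0 := by
        funext x; rw [Subsingleton.elim x 0]
      rw [this]; exact contDiffOn_const
    · intro x _
      rw [Subsingleton.elim (gradient u x) 0, norm_zero]
    · intro x y r _ _ _
      rw [Subsingleton.elim (gradient u x) (gradient u y)]; simp
    · intro x r M hr _ hM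
      have := hM x (mem_closedBall_self hr.le) x (mem_closedBall_self hr.le)
      simpa using this
  · exact convex_or_concave_main hΩ hu hc

end Vale.Agent.Results.P080.ConvexCase
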