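import Vale.Agent.P080.Flat
import Vale.Agent.P080.Variant.Coord

/-!
# P080: infinity-harmonic functions with locally convex level sets are `C^1` in every dimension

The statement uses library notions only.  `u` is a continuous viscosity solution of
`Δ_∞ u = ∑_{i,j} u_i u_j u_{ij} = 0` on the open set `Ω ⊆ ℝ^d` (hypotheses `hcont`, `hvisc`,
written out with the coordinate formula of the problem).
If `u` is locally quasiconvex or quasiconcave, then `u` is `C^1` on `Ω`, and on a connected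
`Ω` either `u` is constant or its gradient never vanishes.
-/

namespace Vale.Agent.Results.P080.LevelSetsExplicit

open Vale.Agent.P080 Metric

theorem result (d : ℕ) (Ω : Set (EuclideanSpace ℝ (Fin d))) (hΩ : IsOpen Ω)
    (u : EuclideanSpace ℝ (Fin d) → ℝ) (hcont : ContinuousOn u Ω)
    (hvisc : ∀ (φ : EuclideanSpace ℝ (Fin d) → ℝ) (z : EuclideanSpace ℝ (Fin d)) (s : ℝ), z ∈ Ω →
      ContDiffAt ℝ 2 φ z →
      s = ∑ i, ∑ j, fderiv ℝ φ z (EuclideanSpace.single i 1) *
        fderiv ℝ φ z (EuclideanSpace.single j 1) *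
        fderiv ℝ (fderiv ℝ φ) z (EuclideanSpace.single i 1) (EuclideanSpace.single j 1) →
      (IsLocalMax (fun x => u x - φ x) z → 0 ≤ s) ∧
      (IsLocalMin (fun x => u x - φ x) z → s ≤ 0))
    (hq : ∀ x ∈ Ω, ∃ ρ : ℝ, 0 < ρ ∧ ball x ρ ⊆ Ω ∧
      (QuasiconvexOn ℝ (ball x ρ) u ∨ QuasiconcaveOn ℝ (ball x ρ) u)) :
    ContDiffOn ℝ 1 u Ω ∧
      (IsPreconnected Ω → (∀ x ∈ Ω, ∀ y ∈ Ω, u x = u y) ∨ ∀ x ∈ Ω, gradient u x ≠ 0) := by
  have hu : IsInfHarmonic u Ω := by
    refine ⟨hcont, ?_, ?_⟩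
    · intro φ z hz hφ hmax
      exact (hvisc φ z _ hz hφ (Variant.infLaplacian_coord d φ z)).1 hmax
    · intro φ z hz hφ hmin
      exact (hvisc φ z _ hz hφ (Variant.infLaplacian_coord d φ z)).2 hmin
  exact quasi_main_unconditional hΩ hu hq

end Vale.Agent.Results.P080.LevelSetsExplicit
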