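import Vale.Agent.P080.Quasi

/-!
# P080: infinity-harmonic functions with locally convex level sets are `C^1` in every dimension

Let `u` be infinity-harmonic on an open set `Ω ⊆ ℝ^d` (any `d`), differentiable at every point of
`Ω` (this is automatic by the Evans-Smart theorem), and locally quasiconvex or quasiconcave.
Then `u` is `C^1` on `Ω`, and on a connected `Ω` either `u` is constant or its gradient never
vanishes.
-/

namespace Vale.Agent.Results.P080.QuasiconvexCase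

open Vale.Agent.P080 Metric

theorem result (d : ℕ) (Ω : Set (EuclideanSpace ℝ (Fin d))) (hΩ : IsOpen Ω)
    (u : EuclideanSpace ℝ (Fin d) → ℝ) (hu : IsInfHarmonic u Ω)
    (hdiff : ∀ x ∈ Ω, DifferentiableAt ℝ u x)
    (hq : ∀ x ∈ Ω, ∃ ρ : ℝ, 0 < ρ ∧ ball x ρ ⊆ Ω ∧
      (QuasiconvexOn ℝ (ball x ρ) u ∨ QuasiconcaveOn ℝ (ball x ρ) u)) :
    ContDiffOn ℝ 1 u Ω ∧
      (IsPreconnected Ω → (∀ x ∈ Ω, ∀ y ∈ Ω, u x = u y) ∨ ∀ x ∈ Ω, gradient u x ≠ 0) :=
  ⟨quasi_main hΩ hu hdiff hq, fun hconn => quasi_dichotomy hΩ hconn hu hdiff hq⟩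

end Vale.Agent.Results.P080.QuasiconvexCase
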