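import Vale.Agent.P080.Flat

/-!
# P080: infinity-harmonic functions with locally convex level sets are `C^1` in every dimension

Let `u` be infinity-harmonic on an open set `Ω ⊆ ℝ^d` (any `d`) and locally quasiconvex or
quasiconcave. Then `u` is `C^1` on `Ω`, and on a connected `Ω` either `u` is constant or its
gradient never vanishes. No differentiability is assumed: the whole proof (comparison with cones,
flatness at small scales, differentiability, continuity of the gradient) starts from the
viscosity definition.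
-/

namespace Vale.Agent.Results.P080.QuasiconvexUnconditional

open Vale.Agent.P080 Metric

theorem result (d : ℕ) (Ω : Set (EuclideanSpace ℝ (Fin d))) (hΩ : IsOpen Ω)
    (u : EuclideanSpace ℝ (Fin d) → ℝ) (hu : IsInfHarmonic u Ω)
    (hq : ∀ x ∈ Ω, ∃ ρ : ℝ, 0 < ρ ∧ ball x ρ ⊆ Ω ∧
      (QuasiconvexOn ℝ (ball x ρ) u ∨ QuasiconcaveOn ℝ (ball x ρ) u)) :
    ContDiffOn ℝ 1 u Ω ∧
      (IsPreconnected Ω → (∀ x ∈ Ω, ∀ y ∈ Ω, u x = u y) ∨ ∀ x ∈ Ω, gradient u x ≠ 0) :=
  quasi_main_unconditional hΩ hu hq

end Vale.Agent.Results.P080.QuasiconvexUnconditional
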